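import Vale.Agent.Lib.P096.Main

/-!
# P096 (strong Kadison-Kastler conjecture): the constant may be allowed to depend on the algebra

The strong form Q1 (for every `ε` one `δ` for all Hilbert spaces and all pairs `M`, `N`) is
equivalent to the formally weaker form in which `δ` may depend on the Hilbert space `H` and on
the von Neumann algebra `M`.
-/

namespace Vale.Agent.Results.P096.UniformFromPointwise

open Vale.Agent.Lib.P096

universe u

theorem result : UniformKK.{u} ↔ PointwiseKK.{u} :=
  uniform_iff_pointwise.{u}

end Vale.Agent.Results.P096.UniformFromPointwise
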